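import Vale.Agent.P207.N4.Spec

/-!
# P207: density of the forward orbit modulo `Γ` and the rotations is a property of the end point
-/

set_option linter.all false

open Set Filter Topology Metric
open scoped ContDiff

noncomputable section

namespace Vale.Agent.P207.N4.H242

open Vale.Agent.P207.N3

variable [Dim]

variable {Γ X B : Type} [Group Γ] [MetricSpace X] [ProperSpace X] [MulAction Γ X]
  [IsIsometricSMul Γ X] [TopologicalSpace B] [CompactSpace B] [T2Space B] [MulAction Γ B]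
  [ContinuousConstSMul Γ B]

/-- the forward orbit is dense modulo `Γ` and the rotations, and this at arbitrarily late times -/
def FwdD (L : Leaf Γ X B) (x : X) : Prop := ∀ W : Set X, IsOpen W → W.Nonempty → ∀ T : ℝ,
  ∃ t ≥ T, ∃ (a : O2) (g : Γ), g • L.rot a (L.φ t x) ∈ W

variable {L : Leaf Γ X B}

theorem FwdD.smul {x : X} (h : FwdD L x) (k : Γ) : FwdD L (k • x) := by
  intro W hW hne T
  obtain ⟨t, ht, a, g, hg⟩ := h W hW hne T
  refine ⟨t, ht, a, g * k⁻¹, ?_⟩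
  rwa [L.φ_smul, L.rot_smul, mul_smul, inv_smul_smul]

theorem FwdD.flow {x : X} (h : FwdD L x) (s : ℝ) : FwdD L (L.φ s x) := by
  intro W hW hne T
  obtain ⟨t, ht, a, g, hg⟩ := h W hW hne (T + s)
  refine ⟨t - s, by linarith, a, g, ?_⟩
  rwa [← L.φ_add, sub_add_cancel]

theorem FwdD.rot {x : X} (h : FwdD L x) (b : O2) : FwdD L (L.rot b x) := by
  intro W hW hne T
  obtain ⟨t, ht, a, g, hg⟩ := h W hW hne T
  refine ⟨t, ht, b⁻¹ * a, g, ?_⟩
  rwa [← L.rot_φ, ← L.rot_mul, mul_inv_cancel_left]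

/-- the stable holonomy of all rotated frames is uniformly asymptotic -/
theorem asym_rot (L : Leaf Γ X B) {x : X} {ξ : B} (hξ : ξ ≠ L.ep x) : ∃ C : ℝ, ∀ (a : O2) (t : ℝ),
    0 ≤ t → dist (L.rot a (L.φ t x)) (L.rot a (L.φ t (L.hol ξ x))) ≤ C * Real.exp (-L.χ * t) := by
  have hep : ∀ a : O2, L.ep (L.rot a x) = L.ep x := fun a => by
    rw [L.ep_flip, L.flip_rot, L.em_rot, ← L.ep_flip]
  set K : Set X := {y | (L.em y, L.ep y) ∈ ({(L.em x, L.ep x)} : Set (B × B)) ∧ |L.lv y| ≤ |L.lv x|}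
    with hK
  have hKc : IsCompact K := L.hopf_proper _ isCompact_singleton (by
    rintro p hp
    rw [mem_singleton_iff] at hp
    rw [hp]
    exact L.em_ne_ep x) _
  obtain ⟨C, hC⟩ := L.hol_asym (({ξ} : Set B) ×ˢ K) (isCompact_singleton.prod hKc) (by
    rintro p ⟨h1, h2⟩
    rw [mem_singleton_iff] at h1
    have h3 : L.ep p.2 = L.ep x := congrArg Prod.snd h2.1
    rw [h1, h3]
    exact hξ)
  refine ⟨C, fun a t ht => ?_⟩
  have h1 := hC (ξ, L.rot a x) ⟨rfl, ?_, ?_⟩ t ht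
  · rw [L.rot_φ, L.rot_φ, ← L.hol_rot a ξ x hξ]
    exact h1
  · rw [mem_singleton_iff, L.em_rot, hep]
  · rw [L.lv_rot]

theorem FwdD.hol {x : X} (h : FwdD L x) {ξ : B} (hξ : ξ ≠ L.ep x) : FwdD L (L.hol ξ x) := by
  intro W hW hne T
  obtain ⟨w, hw⟩ := hne
  obtain ⟨r, hr, hrW⟩ := Metric.isOpen_iff.1 hW w hw
  obtain ⟨C, hC⟩ := asym_rot L hξ
  have hlim : Tendsto (fun t : ℝ => C * Real.exp (-L.χ * t)) atTop (𝓝 0) := by
    have h1 : Tendsto (fun t : ℝ => -L.χ * t) atTop atBot :=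
      tendsto_id.const_mul_atTop_of_neg (neg_lt_zero.2 L.χ_pos)
    have h2 := (Real.tendsto_exp_atBot.comp h1).const_mul C
    rwa [mul_zero] at h2
  obtain ⟨T₁, hT₁⟩ := eventually_atTop.1 (hlim.eventually (gt_mem_nhds (half_pos hr)))
  obtain ⟨t, ht, a, g, hg⟩ := h (ball w (r / 2)) isOpen_ball ⟨w, mem_ball_self (half_pos hr)⟩
    (max T (max T₁ 0))
  have ht1 : T₁ ≤ t := (le_max_left _ _).trans ((le_max_right _ _).trans ht)
  have ht0 : 0 ≤ t := (le_max_right _ _).trans ((le_max_right _ _).trans ht)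
  refine ⟨t, (le_max_left _ _).trans ht, a, g, hrW ?_⟩
  rw [mem_ball] at hg ⊢
  have h1 : dist (g • L.rot a (L.φ t (L.hol ξ x))) (g • L.rot a (L.φ t x)) < r / 2 := by
    rw [dist_smul, dist_comm]
    exact (hC a t ht0).trans_lt (hT₁ t ht1)
  have h2 := dist_triangle (g • L.rot a (L.φ t (L.hol ξ x))) (g • L.rot a (L.φ t x)) w
  linarith

/-- only the orbit of the end point matters -/
theorem FwdD.of_ep {x y : X} (h : FwdD L x) (k : Γ) (hy : L.ep y = k • L.ep x) : FwdD L y := by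
  set y' : X := k⁻¹ • y with hy'
  have hep : L.ep y' = L.ep x := by
    rw [hy', L.ep_flip, L.flip_smul, L.em_smul, ← L.ep_flip, hy, inv_smul_smul]
  have hξ : L.em y' ≠ L.ep x := by rw [← hep]; exact L.em_ne_ep y'
  have hz := h.hol hξ
  have e1 : L.em (L.φ (L.lv y' - L.lv (L.hol (L.em y') x)) (L.hol (L.em y') x)) = L.em y' := by
    rw [L.em_φ, L.hol_em _ _ hξ]
  have e2 : L.ep (L.φ (L.lv y' - L.lv (L.hol (L.em y') x)) (L.hol (L.em y') x)) = L.ep y' := by
    rw [L.ep_flip, L.flip_φ, L.em_φ, ← L.ep_flip, L.hol_ep _ _ hξ, hep]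
  have e3 : L.lv (L.φ (L.lv y' - L.lv (L.hol (L.em y') x)) (L.hol (L.em y') x)) = L.lv y' := by
    rw [L.lv_φ]; ring
  obtain ⟨a, ha⟩ := L.frame_unique _ _ e1 e2 e3
  have h1 : FwdD L y' := by
    rw [ha]
    exact (hz.flow _).rot a
  have h2 := h1.smul k
  rwa [hy', smul_inv_smul] at h2

/-- the set of the end points of the forward dense frames is dense -/
theorem FwdD.ends {x : X} (h : FwdD L x) : ∃ G : Set B, Dense G ∧ ∀ y, L.ep y ∈ G → FwdD L y := by
  refine ⟨range fun g : Γ => g • L.ep x, L.dense_orbit _, ?_⟩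
  rintro y ⟨g, hg⟩
  exact h.of_ep g hg.symm

end Vale.Agent.P207.N4.H242
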